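import Vale.Agent.P121.Main

open MeasureTheory
open scoped ENNReal

namespace Vale.Agent.Results.P121.NoMongeR3

open Vale.Agent.P121

theorem result :
    ∃ μ : Measure (EuclideanSpace ℝ (Fin 3)),
      IsProbabilityMeasure μ ∧ μ ≪ volume ∧
      (∃ ρ : EuclideanSpace ℝ (Fin 3) → ℝ, (∀ n : ℕ, ContDiff ℝ n ρ) ∧ HasCompactSupport ρ ∧
        (∀ x, 0 ≤ ρ x) ∧ μ = volume.withDensity (fun x => ENNReal.ofReal (ρ x))) ∧
      kantorovich μ < ⊤ ∧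
      ¬ ∃ T₂ T₃ : EuclideanSpace ℝ (Fin 3) → EuclideanSpace ℝ (Fin 3),
        Measurable T₂ ∧ Measurable T₃ ∧ μ.map T₂ = μ ∧ μ.map T₃ = μ ∧
        ∫⁻ x, coulomb x (T₂ x) (T₃ x) ∂μ = kantorovich μ := by
  obtain ⟨ρ, h1, h2, h3, μ, h4, h5, h6, h7⟩ := main_euclid 3 (by norm_num)
  refine ⟨μ, h5, h4 ▸ withDensity_absolutelyContinuous _ _,
    ⟨ρ, contDiff_infty.1 h1, h2, h3, h4⟩, h6, ?_⟩
  rintro ⟨T₂, T₃, a, b, c, d, e⟩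
  exact (h7 T₂ T₃ a b c d).ne' e

end Vale.Agent.Results.P121.NoMongeR3
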